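import Mathlib
import Crest.Prelude.Def_FinProb

/-!
`p`-biased Fourier analysis on the discrete cube `ι → Bool`, with the product weight
`Crest.FinProb.bernoulliWeight p`.
-/

set_option autoImplicit false

namespace Crest.Agent.Lib.CubeFourier

open Finset Crest.FinProb

variable {ι : Type*} [Fintype ι] [DecidableEq ι]

/-- Expectation under the product Bernoulli weight. -/
noncomputable def Ex (p : ℝ) (F : (ι → Bool) → ℝ) : ℝ := ∑ x, bernoulliWeight p x * F x

/-- Standard deviation of one coin. -/
noncomputable def sig (p : ℝ) : ℝ := Real.sqrt (p * (1 - p))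

/-- The normalised one-coin character. -/
noncomputable def chi1 (p : ℝ) (b : Bool) : ℝ := ((if b then 1 else 0) - p) / sig p

/-- The character of a set of coordinates. -/
noncomputable def chi (p : ℝ) (S : Finset ι) (x : ι → Bool) : ℝ := ∏ i ∈ S, chi1 p (x i)

/-- Fourier coefficient. -/
noncomputable def coeff (p : ℝ) (f : (ι → Bool) → ℝ) (S : Finset ι) : ℝ :=
  Ex p (fun x => f x * chi p S x)

omit [DecidableEq ι] in
theorem weight_nonneg {p : ℝ} (h0 : 0 ≤ p) (h1 : p ≤ 1) (x : ι → Bool) :
    0 ≤ bernoulliWeight p x := by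
  unfold bernoulliWeight
  apply Finset.prod_nonneg
  intro i _
  split_ifs <;> linarith

theorem sum_weight (p : ℝ) : ∑ x : ι → Bool, bernoulliWeight p x = 1 := by
  unfold bernoulliWeight
  have := Finset.prod_univ_sum (fun _ : ι => (Finset.univ : Finset Bool))
    (fun (_ : ι) (b : Bool) => if b then p else 1 - p)
  rw [Fintype.piFinset_univ] at this
  rw [← this]
  simp

theorem Ex_const (p c : ℝ) : Ex p (fun _ : ι → Bool => c) = c := by
  unfold Ex
  rw [← Finset.sum_mul, sum_weight, one_mul]

theorem Ex_congr (p : ℝ) {F G : (ι → Bool) → ℝ} (h : ∀ x, F x = G x) : Ex p F = Ex p G := by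
  have : F = G := funext h
  rw [this]

theorem Ex_add (p : ℝ) (F G : (ι → Bool) → ℝ) :
    Ex p (fun x => F x + G x) = Ex p F + Ex p G := by
  unfold Ex
  rw [← Finset.sum_add_distrib]
  exact Finset.sum_congr rfl fun x _ => by ring

theorem Ex_sub (p : ℝ) (F G : (ι → Bool) → ℝ) :
    Ex p (fun x => F x - G x) = Ex p F - Ex p G := by
  unfold Ex
  rw [← Finset.sum_sub_distrib]
  exact Finset.sum_congr rfl fun x _ => by ring

theorem Ex_const_mul (p c : ℝ) (F : (ι → Bool) → ℝ) :
    Ex p (fun x => c * F x) = c * Ex p F := by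
  unfold Ex
  rw [Finset.mul_sum]
  exact Finset.sum_congr rfl fun x _ => by ring

theorem Ex_mul_const (p c : ℝ) (F : (ι → Bool) → ℝ) :
    Ex p (fun x => F x * c) = Ex p F * c := by
  unfold Ex
  rw [Finset.sum_mul]
  exact Finset.sum_congr rfl fun x _ => by ring

theorem Ex_sum {α : Type*} (p : ℝ) (s : Finset α) (F : α → (ι → Bool) → ℝ) :
    Ex p (fun x => ∑ a ∈ s, F a x) = ∑ a ∈ s, Ex p (F a) := by
  unfold Ex
  rw [Finset.sum_comm]
  exact Finset.sum_congr rfl fun x _ => by rw [Finset.mul_sum]

theorem Ex_comm {κ : Type*} [Fintype κ] [DecidableEq κ] (p q : ℝ)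
    (F : (ι → Bool) → (κ → Bool) → ℝ) :
    Ex p (fun x => Ex q (fun y => F x y)) = Ex q (fun y => Ex p (fun x => F x y)) := by
  unfold Ex
  simp only [Finset.mul_sum]
  rw [Finset.sum_comm]
  exact Finset.sum_congr rfl fun y _ => Finset.sum_congr rfl fun x _ => by ring

theorem Ex_mono {p : ℝ} (h0 : 0 ≤ p) (h1 : p ≤ 1) {F G : (ι → Bool) → ℝ} (h : ∀ x, F x ≤ G x) :
    Ex p F ≤ Ex p G := by
  unfold Ex
  exact Finset.sum_le_sum fun x _ => mul_le_mul_of_nonneg_left (h x) (weight_nonneg h0 h1 x)

theorem Ex_nonneg {p : ℝ} (h0 : 0 ≤ p) (h1 : p ≤ 1) {F : (ι → Bool) → ℝ} (h : ∀ x, 0 ≤ F x) :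
    0 ≤ Ex p F := by
  have := Ex_mono h0 h1 (F := fun _ => 0) (G := F) h
  rwa [Ex_const] at this

theorem abs_Ex_le {p : ℝ} (h0 : 0 ≤ p) (h1 : p ≤ 1) (F : (ι → Bool) → ℝ) :
    |Ex p F| ≤ Ex p (fun x => |F x|) := by
  rw [abs_le]
  constructor
  · have := Ex_mono h0 h1 (F := fun x => (-1) * |F x|) (G := F)
      (fun x => by have := neg_abs_le (F x); linarith)
    rw [Ex_const_mul] at this
    linarith
  · exact Ex_mono h0 h1 (fun x => le_abs_self _)

/-- Cauchy-Schwarz. -/
theorem Ex_mul_sq_le {p : ℝ} (h0 : 0 ≤ p) (h1 : p ≤ 1) (F G : (ι → Bool) → ℝ) :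
    (Ex p (fun x => F x * G x)) ^ 2 ≤ Ex p (fun x => F x ^ 2) * Ex p (fun x => G x ^ 2) := by
  unfold Ex
  apply Finset.sum_sq_le_sum_mul_sum_of_sq_le_mul
  · intro x _
    exact mul_nonneg (weight_nonneg h0 h1 x) (sq_nonneg _)
  · intro x _
    exact mul_nonneg (weight_nonneg h0 h1 x) (sq_nonneg _)
  · intro x _
    exact le_of_eq (by ring)

/-- The weight of all coordinates but one. -/
noncomputable def wErase (p : ℝ) (i : ι) (x : ι → Bool) : ℝ :=
  ∏ j ∈ Finset.univ.erase i, if x j then p else 1 - p

theorem weight_eq_erase (p : ℝ) (i : ι) (x : ι → Bool) :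
    bernoulliWeight p x = (if x i then p else 1 - p) * wErase p i x := by
  unfold bernoulliWeight wErase
  rw [Finset.mul_prod_erase Finset.univ (fun j => if x j then p else 1 - p) (Finset.mem_univ i)]

theorem wErase_update (p : ℝ) (i : ι) (x : ι → Bool) (b : Bool) :
    wErase p i (Function.update x i b) = wErase p i x := by
  unfold wErase
  apply Finset.prod_congr rfl
  intro j hj
  rw [Function.update_of_ne (Finset.ne_of_mem_erase hj)]

theorem sum_flip (i : ι) (G : (ι → Bool) → ℝ) :
    ∑ x, G x = ∑ x, G (Function.update x i (!x i)) := by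
  have hinv : Function.Involutive (fun x : ι → Bool => Function.update x i (!x i)) := by
    intro x
    simp
  exact (Equiv.sum_comp hinv.toPerm G).symm

theorem sum_wErase (p : ℝ) (i : ι) (a : Bool → ℝ) (F : (ι → Bool) → ℝ) :
    ∑ x, wErase p i x * (a (x i) * F x) =
      Ex p (fun x => a true * F (Function.update x i true) +
        a false * F (Function.update x i false)) := by
  unfold Ex
  have h1 := sum_flip i (fun x => wErase p i x * (a (x i) * F x))
  have h2 := sum_flip i (fun x => bernoulliWeight p x * (a true * F (Function.update x i true) +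
        a false * F (Function.update x i false)))
  have h3 : ∑ x, wErase p i x * (a (x i) * F x) +
      ∑ x : ι → Bool, wErase p i (Function.update x i (!x i)) *
        (a ((Function.update x i (!x i)) i) * F (Function.update x i (!x i))) =
      ∑ x, bernoulliWeight p x * (a true * F (Function.update x i true) +
        a false * F (Function.update x i false)) +
      ∑ x : ι → Bool, bernoulliWeight p (Function.update x i (!x i)) *
        (a true * F (Function.update (Function.update x i (!x i)) i true) +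
        a false * F (Function.update (Function.update x i (!x i)) i false)) := by
    rw [← Finset.sum_add_distrib, ← Finset.sum_add_distrib]
    apply Finset.sum_congr rfl
    intro x _
    rw [weight_eq_erase p i x, weight_eq_erase p i (Function.update x i (!x i)), wErase_update]
    simp only [Function.update_idem, Function.update_self]
    cases h : x i
    · have : Function.update x i false = x := by rw [← h]; simp
      rw [this]
      simp
      ring
    · have : Function.update x i true = x := by rw [← h]; simp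
      rw [this]
      simp
      ring
  linarith

theorem Ex_update (p : ℝ) (i : ι) (F : (ι → Bool) → ℝ) :
    Ex p F = Ex p (fun x => p * F (Function.update x i true) +
        (1 - p) * F (Function.update x i false)) := by
  have := sum_wErase p i (fun b => if b then p else 1 - p) F
  simp only [if_true, Bool.false_eq_true, if_false] at this
  rw [← this]
  unfold Ex
  apply Finset.sum_congr rfl
  intro x _
  rw [weight_eq_erase p i x]
  ring

theorem Ex_piecewise (p : ℝ) (B : Finset ι) (F : (ι → Bool) → ℝ) :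
    Ex p (fun y => Ex p (fun x => F (B.piecewise x y))) = Ex p F := by
  have hinv : Function.Involutive
      (fun z : (ι → Bool) × (ι → Bool) => (B.piecewise z.2 z.1, B.piecewise z.1 z.2)) := by
    intro z
    ext i <;> by_cases h : i ∈ B <;> simp [Finset.piecewise, h]
  have h1 := Equiv.sum_comp hinv.toPerm
    (fun z : (ι → Bool) × (ι → Bool) => bernoulliWeight p z.1 * (bernoulliWeight p z.2 * F z.1))
  have h2 : ∑ z : (ι → Bool) × (ι → Bool), bernoulliWeight p z.1 * (bernoulliWeight p z.2 * F z.1)
      = Ex p F := by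
    rw [Fintype.sum_prod_type]
    unfold Ex
    apply Finset.sum_congr rfl
    intro y _
    simp only []
    rw [← Finset.mul_sum, ← Finset.sum_mul, sum_weight, one_mul]
  rw [← h2, ← h1, Fintype.sum_prod_type]
  unfold Ex
  apply Finset.sum_congr rfl
  intro y _
  rw [Finset.mul_sum]
  apply Finset.sum_congr rfl
  intro x _
  simp only [Function.Involutive.coe_toPerm]
  have : bernoulliWeight p (B.piecewise x y) * bernoulliWeight p (B.piecewise y x) =
      bernoulliWeight p y * bernoulliWeight p x := by
    unfold bernoulliWeight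
    rw [← Finset.prod_mul_distrib, ← Finset.prod_mul_distrib]
    apply Finset.prod_congr rfl
    intro i _
    by_cases h : i ∈ B <;> simp [Finset.piecewise, h, mul_comm]
  rw [← mul_assoc, ← mul_assoc, this]

theorem Ex_comp_perm (p : ℝ) (π : Equiv.Perm ι) (F : (ι → Bool) → ℝ) :
    Ex p (fun x => F (x ∘ π)) = Ex p F := by
  unfold Ex
  rw [← Equiv.sum_comp (Equiv.arrowCongr π.symm (Equiv.refl Bool))
    (fun x => bernoulliWeight p x * F x)]
  apply Finset.sum_congr rfl
  intro x _
  have h : (Equiv.arrowCongr π.symm (Equiv.refl Bool)) x = x ∘ π := by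
    ext i; simp
  rw [h]
  congr 1
  unfold bernoulliWeight
  exact (Equiv.prod_comp π (fun i => if x i then p else 1 - p)).symm

theorem sig_sq {p : ℝ} (h0 : 0 ≤ p) (h1 : p ≤ 1) : sig p ^ 2 = p * (1 - p) := by
  unfold sig
  rw [Real.sq_sqrt]
  exact mul_nonneg h0 (by linarith)

theorem sig_pos {p : ℝ} (h0 : 0 < p) (h1 : p < 1) : 0 < sig p := by
  unfold sig
  exact Real.sqrt_pos.mpr (mul_pos h0 (by linarith))

theorem sig_le_half {p : ℝ} (h0 : 0 ≤ p) (h1 : p ≤ 1) : sig p ≤ 1 / 2 := by
  have h := sig_sq h0 h1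
  have h2 : 0 ≤ sig p := Real.sqrt_nonneg _
  nlinarith [sq_nonneg (p - 1 / 2)]

theorem chi1_mean (p : ℝ) : p * chi1 p true + (1 - p) * chi1 p false = 0 := by
  unfold chi1
  simp
  ring

theorem chi1_sq_mean {p : ℝ} (h0 : 0 < p) (h1 : p < 1) :
    p * chi1 p true ^ 2 + (1 - p) * chi1 p false ^ 2 = 1 := by
  unfold chi1
  have hs := sig_sq h0.le h1.le
  have hp := sig_pos h0 h1
  simp only [if_true, Bool.false_eq_true, if_false, div_pow, hs]
  have : 1 - p ≠ 0 := by linarith
  field_simp
  ring

theorem kernel1 {p : ℝ} (h0 : 0 < p) (h1 : p < 1) (a b : Bool) :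
    (if b then p else 1 - p) * (1 + chi1 p b * chi1 p a) = if a = b then 1 else 0 := by
  unfold chi1
  have hs := sig_sq h0.le h1.le
  have hp := sig_pos h0 h1
  have h1' : 1 - p ≠ 0 := by linarith
  have hdiv : ∀ u v : ℝ, u / sig p * (v / sig p) = u * v / (p * (1 - p)) := by
    intro u v
    rw [← hs]
    field_simp
  rw [hdiv]
  have h0' : p ≠ 0 := h0.ne'
  cases a <;> cases b <;> simp only [if_true, Bool.false_eq_true, if_false, Bool.true_eq_false] <;>
    field_simp <;> ring

omit [DecidableEq ι] in
theorem kernel_sum {p : ℝ} (h0 : 0 < p) (h1 : p < 1) (x y : ι → Bool) :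
    bernoulliWeight p y * ∑ S : Finset ι, chi p S y * chi p S x = if x = y then 1 else 0 := by
  have h : ∑ S : Finset ι, chi p S y * chi p S x = ∏ i, (1 + chi1 p (y i) * chi1 p (x i)) := by
    rw [Finset.prod_one_add, Finset.powerset_univ]
    apply Finset.sum_congr rfl
    intro S _
    unfold chi
    rw [Finset.prod_mul_distrib]
  rw [h]
  unfold bernoulliWeight
  rw [← Finset.prod_mul_distrib]
  simp only [kernel1 h0 h1]
  rw [Finset.prod_ite_zero]
  simp [funext_iff]

/-- Fourier expansion. -/
theorem expansion {p : ℝ} (h0 : 0 < p) (h1 : p < 1) (f : (ι → Bool) → ℝ) (x : ι → Bool) :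
    f x = ∑ S : Finset ι, coeff p f S * chi p S x := by
  unfold coeff Ex
  simp only [Finset.sum_mul]
  rw [Finset.sum_comm]
  have : ∀ y : ι → Bool, ∑ S : Finset ι, bernoulliWeight p y * (f y * chi p S y) * chi p S x =
      f y * if x = y then 1 else 0 := by
    intro y
    rw [← kernel_sum h0 h1 x y, Finset.mul_sum, Finset.mul_sum]
    exact Finset.sum_congr rfl fun S _ => by ring
  simp only [this]
  simp

/-- Pairing of a trigonometric sum with a function. -/
theorem Ex_sum_chi_mul (p : ℝ) (𝓕 : Finset (Finset ι)) (c : Finset ι → ℝ)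
    (g : (ι → Bool) → ℝ) :
    Ex p (fun x => (∑ S ∈ 𝓕, c S * chi p S x) * g x) = ∑ S ∈ 𝓕, c S * coeff p g S := by
  simp only [Finset.sum_mul]
  rw [Ex_sum]
  apply Finset.sum_congr rfl
  intro S _
  unfold coeff
  rw [← Ex_const_mul]
  exact Ex_congr p fun x => by ring

/-- Plancherel. -/
theorem plancherel {p : ℝ} (h0 : 0 < p) (h1 : p < 1) (f g : (ι → Bool) → ℝ) :
    Ex p (fun x => f x * g x) = ∑ S : Finset ι, coeff p f S * coeff p g S := by
  rw [← Ex_sum_chi_mul]
  exact Ex_congr p fun x => by rw [← expansion h0 h1 f x]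

/-- Parseval. -/
theorem parseval {p : ℝ} (h0 : 0 < p) (h1 : p < 1) (f : (ι → Bool) → ℝ) :
    Ex p (fun x => f x ^ 2) = ∑ S : Finset ι, coeff p f S ^ 2 := by
  simp only [sq]
  exact plancherel h0 h1 f f

theorem coeff_empty (p : ℝ) (f : (ι → Bool) → ℝ) : coeff p f ∅ = Ex p f := by
  unfold coeff chi
  simp

omit [Fintype ι] in
theorem chi_update_of_notMem (p : ℝ) {S : Finset ι} {i : ι} (h : i ∉ S) (x : ι → Bool) (b : Bool) :
    chi p S (Function.update x i b) = chi p S x := by
  unfold chi
  apply Finset.prod_congr rfl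
  intro j hj
  have hji : j ≠ i := fun hji => h (hji ▸ hj)
  rw [Function.update_of_ne hji]

omit [Fintype ι] in
theorem chi_insert (p : ℝ) {S : Finset ι} {i : ι} (h : i ∉ S) (x : ι → Bool) :
    chi p (insert i S) x = chi1 p (x i) * chi p S x := by
  unfold chi
  rw [Finset.prod_insert h]

/-- The discrete derivative. -/
def Dv (i : ι) (f : (ι → Bool) → ℝ) (x : ι → Bool) : ℝ :=
  f (Function.update x i true) - f (Function.update x i false)

/-- The one-coordinate Laplacian `f - E_i f`. -/
def Lap (p : ℝ) (i : ι) (f : (ι → Bool) → ℝ) (x : ι → Bool) : ℝ :=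
  f x - (p * f (Function.update x i true) + (1 - p) * f (Function.update x i false))

omit [Fintype ι] in
theorem Lap_eq (p : ℝ) (i : ι) (f : (ι → Bool) → ℝ) (x : ι → Bool) :
    Lap p i f x = ((if x i then 1 else 0) - p) * Dv i f x := by
  unfold Lap Dv
  cases h : x i
  · have : Function.update x i false = x := by rw [← h]; simp
    rw [this]; simp; ring
  · have : Function.update x i true = x := by rw [← h]; simp
    rw [this]; simp; ring

omit [Fintype ι] in
theorem Dv_update (i : ι) (f : (ι → Bool) → ℝ) (x : ι → Bool) (b : Bool) :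
    Dv i f (Function.update x i b) = Dv i f x := by
  unfold Dv
  simp

omit [Fintype ι] in
theorem abs_Lap_le {p : ℝ} (h0 : 0 ≤ p) (h1 : p ≤ 1) (i : ι) (f : (ι → Bool) → ℝ)
    (x : ι → Bool) : |Lap p i f x| ≤ |Dv i f x| := by
  rw [Lap_eq, abs_mul]
  have : |(if x i then (1 : ℝ) else 0) - p| ≤ 1 := by
    rw [abs_le]
    split_ifs <;> constructor <;> linarith
  calc _ ≤ 1 * |Dv i f x| := mul_le_mul_of_nonneg_right this (abs_nonneg _)
    _ = _ := one_mul _

theorem coeff_Lap_of_mem (p : ℝ) {i : ι} {S : Finset ι} (h : i ∈ S) (f : (ι → Bool) → ℝ) :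
    coeff p (Lap p i f) S = coeff p f S := by
  unfold coeff Lap
  simp only [sub_mul]
  rw [Ex_sub]
  have : Ex p (fun x => (p * f (Function.update x i true) +
      (1 * f (Function.update x i false) - p * f (Function.update x i false))) * chi p S x) = 0 := by
    rw [Ex_update p i, ← Ex_const (ι := ι) p 0]
    apply Ex_congr
    intro x
    have hS : S = insert i (S.erase i) := (Finset.insert_erase h).symm
    have hn : i ∉ S.erase i := Finset.notMem_erase i S
    rw [hS, chi_insert p hn, chi_insert p hn, chi_update_of_notMem p hn,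
      chi_update_of_notMem p hn]
    simp only [Function.update_idem, Function.update_self]
    have := chi1_mean p
    linear_combination (p * f (Function.update x i true) +
      (1 * f (Function.update x i false) - p * f (Function.update x i false))) *
        chi p (S.erase i) x * this
  rw [this, sub_zero]

theorem Ex_Lap_sq (p : ℝ) (i : ι) (f : (ι → Bool) → ℝ) :
    Ex p (fun x => Lap p i f x ^ 2) = p * (1 - p) * Ex p (fun x => Dv i f x ^ 2) := by
  rw [Ex_update p i, ← Ex_const_mul]
  apply Ex_congr
  intro x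
  simp only [Lap_eq, Dv_update, Function.update_self]
  simp
  ring

/-- The Fourier weight of sets containing `i` is at most `p(1-p) E (D_i f)^2`. -/
theorem sum_coeff_sq_mem_le {p : ℝ} (h0 : 0 < p) (h1 : p < 1) (i : ι) (f : (ι → Bool) → ℝ) :
    ∑ S ∈ Finset.univ.filter (fun S : Finset ι => i ∈ S), coeff p f S ^ 2 ≤
      p * (1 - p) * Ex p (fun x => Dv i f x ^ 2) := by
  rw [← Ex_Lap_sq, parseval h0 h1]
  calc _ = ∑ S ∈ Finset.univ.filter (fun S : Finset ι => i ∈ S), coeff p (Lap p i f) S ^ 2 := by
        apply Finset.sum_congr rfl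
        intro S hS
        rw [coeff_Lap_of_mem p (Finset.mem_filter.mp hS).2]
    _ ≤ _ := Finset.sum_le_sum_of_subset_of_nonneg (Finset.filter_subset _ _)
        (fun _ _ _ => sq_nonneg _)

/-- Total degree bound. -/
theorem sum_card_mul_coeff_sq_le {p : ℝ} (h0 : 0 < p) (h1 : p < 1) (f : (ι → Bool) → ℝ) :
    ∑ S : Finset ι, (S.card : ℝ) * coeff p f S ^ 2 ≤
      p * (1 - p) * ∑ i, Ex p (fun x => Dv i f x ^ 2) := by
  rw [Finset.mul_sum]
  refine le_trans (le_of_eq ?_) (Finset.sum_le_sum fun i _ => sum_coeff_sq_mem_le h0 h1 i f)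
  simp only [Finset.sum_filter]
  rw [Finset.sum_comm]
  apply Finset.sum_congr rfl
  intro S _
  rw [← Finset.sum_filter]
  simp

/-- Variance as Fourier weight of the non-empty sets. -/
theorem var_eq {p : ℝ} (h0 : 0 < p) (h1 : p < 1) (f : (ι → Bool) → ℝ) :
    Ex p (fun x => f x ^ 2) - Ex p f ^ 2 =
      ∑ S ∈ Finset.univ.erase (∅ : Finset ι), coeff p f S ^ 2 := by
  rw [parseval h0 h1, ← Finset.add_sum_erase _ _ (Finset.mem_univ ∅), coeff_empty]
  ring

/-- Russo's formula. -/
theorem hasDerivAt_Ex (f : (ι → Bool) → ℝ) (p : ℝ) :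
    HasDerivAt (fun q => Ex q f) (∑ i, Ex p (Dv i f)) p := by
  have h1 : ∀ x : ι → Bool, HasDerivAt (fun q => bernoulliWeight q x * f x)
      ((∑ i, wErase p i x * (if x i then 1 else -1)) * f x) p := by
    intro x
    apply HasDerivAt.mul_const
    unfold bernoulliWeight wErase
    have := HasDerivAt.fun_finsetProd (u := (Finset.univ : Finset ι))
      (f := fun i q => if x i then q else 1 - q) (f' := fun i => if x i then 1 else -1) (x := p)
      (fun i _ => by
        split_ifs
        · exact hasDerivAt_id p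
        · simpa using (hasDerivAt_id p).const_sub 1)
    simpa using this
  have h2 := HasDerivAt.fun_sum (u := (Finset.univ : Finset (ι → Bool))) (fun x _ => h1 x)
  have h3 : ∑ x : ι → Bool, (∑ i, wErase p i x * (if x i then 1 else -1)) * f x =
      ∑ i, Ex p (Dv i f) := by
    simp only [Finset.sum_mul]
    rw [Finset.sum_comm]
    apply Finset.sum_congr rfl
    intro i _
    have := sum_wErase p i (fun b => if b then 1 else -1) f
    simp only [mul_assoc]
    rw [this]
    apply Ex_congr
    intro x
    unfold Dv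
    simp
    ring
  rw [h3] at h2
  exact h2

theorem bernoulliProb_eq_Ex (p : ℝ) (E : Set (ι → Bool)) [DecidablePred (· ∈ E)] :
    bernoulliProb p E = Ex p (fun x => if x ∈ E then 1 else 0) := by
  unfold bernoulliProb Ex
  rw [Finset.sum_filter]
  apply Finset.sum_congr rfl
  intro x _
  by_cases h : x ∈ E <;> simp [h]

end Crest.Agent.Lib.CubeFourier
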