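import Crest.Agent.Lib.CubeFourier.Basic

/-!
The `(2,4)` hypercontractive inequality on the `p`-biased cube and a level inequality.
-/

set_option autoImplicit false

namespace Crest.Agent.Lib.CubeFourier

open Finset Crest.FinProb

variable {ι : Type*} [Fintype ι] [DecidableEq ι]

theorem one_bit {p : ℝ} (h0 : 0 < p) (h1 : p < 1) {ρ : ℝ} (hρ0 : 0 ≤ ρ) (hρ : ρ ^ 2 = sig p / 4)
    (a b : ℝ) :
    p * (a + ρ * chi1 p true * b) ^ 4 + (1 - p) * (a + ρ * chi1 p false * b) ^ 4 ≤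
      (a ^ 2 + b ^ 2) ^ 2 := by
  have hs := sig_sq h0.le h1.le
  have hp := sig_pos h0 h1
  have hh := sig_le_half h0.le h1.le
  have m1 := chi1_mean p
  have m2 := chi1_sq_mean h0 h1
  have m3 : (p * chi1 p true ^ 3 + (1 - p) * chi1 p false ^ 3) * sig p = 1 - 2 * p := by
    unfold chi1
    simp only [if_true, Bool.false_eq_true, if_false]
    have : (p * ((1 - p) / sig p) ^ 3 + (1 - p) * ((0 - p) / sig p) ^ 3) * sig p =
        (p * (1 - p)) * (1 - 2 * p) / sig p ^ 2 := by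
      field_simp
      ring
    rw [this, hs]
    have : 1 - p ≠ 0 := by linarith
    field_simp
  have m4 : (p * chi1 p true ^ 4 + (1 - p) * chi1 p false ^ 4) * sig p ^ 2 =
      1 - 3 * p * (1 - p) := by
    unfold chi1
    simp only [if_true, Bool.false_eq_true, if_false]
    have : (p * ((1 - p) / sig p) ^ 4 + (1 - p) * ((0 - p) / sig p) ^ 4) * sig p ^ 2 =
        (p * (1 - p)) * (1 - 3 * p * (1 - p)) / sig p ^ 2 := by
      field_simp
      ring
    rw [this, hs]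
    have : 1 - p ≠ 0 := by linarith
    field_simp
  set u := chi1 p true
  set v := chi1 p false
  set M3 := p * u ^ 3 + (1 - p) * v ^ 3 with hM3
  set M4 := p * u ^ 4 + (1 - p) * v ^ 4 with hM4
  have hexp : p * (a + ρ * u * b) ^ 4 + (1 - p) * (a + ρ * v * b) ^ 4 =
      a ^ 4 + 6 * ρ ^ 2 * (a ^ 2 * b ^ 2) + (ρ * (1 - 2 * p)) * (a * b ^ 3) +
        ((1 - 3 * p * (1 - p)) / 16) * b ^ 4 := by
    have e3 : 4 * ρ ^ 3 * M3 = ρ * (1 - 2 * p) := by
      rw [← m3]
      have : ρ ^ 3 = ρ * (sig p / 4) := by rw [← hρ]; ring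
      rw [this]; ring
    have e4 : ρ ^ 4 * M4 = (1 - 3 * p * (1 - p)) / 16 := by
      rw [← m4]
      have : ρ ^ 4 = (sig p / 4) ^ 2 := by rw [← hρ]; ring
      rw [this]; ring
    rw [← e3, ← e4, hM3, hM4]
    linear_combination (4 * a ^ 3 * ρ * b) * m1 + (6 * a ^ 2 * ρ ^ 2 * b ^ 2) * m2
  rw [hexp]
  have hρ1 : ρ ≤ 1 := by nlinarith
  have hc : |ρ * (1 - 2 * p)| ≤ 1 := by
    rw [abs_le]; constructor <;> nlinarith
  have h3 : (ρ * (1 - 2 * p)) * (a * b ^ 3) ≤ (a ^ 2 * b ^ 2 + b ^ 4) / 2 := by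
    have h4 : |a * b ^ 3| ≤ (a ^ 2 * b ^ 2 + b ^ 4) / 2 := by
      rw [abs_le]
      constructor
      · nlinarith [sq_nonneg (a * b + b ^ 2)]
      · nlinarith [sq_nonneg (a * b - b ^ 2)]
    calc _ ≤ |(ρ * (1 - 2 * p)) * (a * b ^ 3)| := le_abs_self _
      _ = |ρ * (1 - 2 * p)| * |a * b ^ 3| := abs_mul _ _
      _ ≤ 1 * |a * b ^ 3| := mul_le_mul_of_nonneg_right hc (abs_nonneg _)
      _ ≤ _ := by rw [one_mul]; exact h4
  have h5 : 6 * ρ ^ 2 * (a ^ 2 * b ^ 2) ≤ 1 * (a ^ 2 * b ^ 2) :=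
    mul_le_mul_of_nonneg_right (by rw [hρ]; linarith) (by positivity)
  have h6 : ((1 - 3 * p * (1 - p)) / 16) * b ^ 4 ≤ (1 / 16) * b ^ 4 :=
    mul_le_mul_of_nonneg_right (by nlinarith) (by positivity)
  have h7 : 0 ≤ a ^ 2 * b ^ 2 := by positivity
  have h8 : 0 ≤ b ^ 4 := by positivity
  nlinarith

/-- `(2,4)`-hypercontractivity. -/
theorem bonami_noise {p : ℝ} (h0 : 0 < p) (h1 : p < 1) {ρ : ℝ} (hρ0 : 0 ≤ ρ)
    (hρ : ρ ^ 2 = sig p / 4) (U : Finset ι) (c : Finset ι → ℝ) :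
    Ex p (fun x => (∑ S ∈ U.powerset, ρ ^ S.card * c S * chi p S x) ^ 4) ≤
      (∑ S ∈ U.powerset, c S ^ 2) ^ 2 := by
  induction U using Finset.induction_on generalizing c with
  | empty =>
    simp only [Finset.powerset_empty, Finset.sum_singleton, Finset.card_empty, pow_zero, one_mul]
    unfold chi
    simp only [Finset.prod_empty, mul_one]
    rw [Ex_const]
    exact le_of_eq (by ring)
  | insert i U hi ih =>
    set A : (ι → Bool) → ℝ := fun x => ∑ S ∈ U.powerset, ρ ^ S.card * c S * chi p S x with hA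
    set B : (ι → Bool) → ℝ :=
      fun x => ∑ S ∈ U.powerset, ρ ^ S.card * c (insert i S) * chi p S x with hB
    have hnot : ∀ S ∈ U.powerset, i ∉ S := fun S hS h => hi (Finset.mem_powerset.mp hS h)
    have hsplit : ∀ x, ∑ S ∈ (insert i U).powerset, ρ ^ S.card * c S * chi p S x =
        A x + ρ * chi1 p (x i) * B x := by
      intro x
      rw [Finset.sum_powerset_insert hi, hA, hB]
      simp only []
      congr 1
      rw [Finset.mul_sum]
      apply Finset.sum_congr rfl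
      intro S hS
      rw [Finset.card_insert_of_notMem (hnot S hS), chi_insert p (hnot S hS)]
      ring
    have hAu : ∀ x b, A (Function.update x i b) = A x := by
      intro x b
      apply Finset.sum_congr rfl
      intro S hS
      rw [chi_update_of_notMem p (hnot S hS)]
    have hBu : ∀ x b, B (Function.update x i b) = B x := by
      intro x b
      apply Finset.sum_congr rfl
      intro S hS
      rw [chi_update_of_notMem p (hnot S hS)]
    rw [Finset.sum_powerset_insert hi]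
    simp only [hsplit]
    rw [Ex_update p i]
    simp only [hAu, hBu, Function.update_self]
    have iA := ih c
    have iB := ih (fun S => c (insert i S))
    set α := ∑ S ∈ U.powerset, c S ^ 2
    set β := ∑ S ∈ U.powerset, c (insert i S) ^ 2
    have hα : 0 ≤ α := Finset.sum_nonneg fun _ _ => sq_nonneg _
    have hβ : 0 ≤ β := Finset.sum_nonneg fun _ _ => sq_nonneg _
    change Ex p (fun x => A x ^ 4) ≤ α ^ 2 at iA
    change Ex p (fun x => B x ^ 4) ≤ β ^ 2 at iB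
    have hcs := Ex_mul_sq_le h0.le h1.le (fun x => A x ^ 2) (fun x => B x ^ 2)
    simp only [← pow_mul] at hcs
    have hA4 : 0 ≤ Ex p (fun x => A x ^ 4) := Ex_nonneg h0.le h1.le fun x => by positivity
    have hB4 : 0 ≤ Ex p (fun x => B x ^ 4) := Ex_nonneg h0.le h1.le fun x => by positivity
    have hAB : Ex p (fun x => A x ^ 2 * B x ^ 2) ≤ α * β := by
      apply le_of_sq_le_sq_of_nonneg_aux
      · exact mul_nonneg hα hβ
      · calc _ ≤ _ := hcs
          _ ≤ α ^ 2 * β ^ 2 := mul_le_mul iA iB hB4 (sq_nonneg _)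
          _ = _ := by ring
    calc _ ≤ Ex p (fun x => (A x ^ 4 + 2 * (A x ^ 2 * B x ^ 2)) + B x ^ 4) := by
          apply Ex_mono h0.le h1.le
          intro x
          exact le_trans (one_bit h0 h1 hρ0 hρ (A x) (B x)) (le_of_eq (by ring))
      _ ≤ (α ^ 2 + 2 * (α * β)) + β ^ 2 := by
          rw [Ex_add, Ex_add, Ex_const_mul]
          linarith
      _ = _ := by ring
where
  le_of_sq_le_sq_of_nonneg_aux {a b : ℝ} (hb : 0 ≤ b) (h : a ^ 2 ≤ b ^ 2) : a ≤ b :=
    le_trans (le_abs_self a) (abs_le_of_sq_le_sq' h hb |> fun h' => abs_le.mpr h')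

theorem eight_le_K {p : ℝ} (h0 : 0 < p) (h1 : p < 1) : 8 ≤ 4 / sig p := by
  have hp := sig_pos h0 h1
  have hh := sig_le_half h0.le h1.le
  rw [le_div_iff₀ hp]
  linarith

/-- Bonami's lemma for low-degree sums. -/
theorem bonami_low {p : ℝ} (h0 : 0 < p) (h1 : p < 1) (𝓕 : Finset (Finset ι)) (D : ℕ)
    (hD : ∀ S ∈ 𝓕, S.card ≤ D) (c : Finset ι → ℝ) :
    Ex p (fun x => (∑ S ∈ 𝓕, c S * chi p S x) ^ 4) ≤
      (4 / sig p) ^ (2 * D) * (∑ S ∈ 𝓕, c S ^ 2) ^ 2 := by
  have hp := sig_pos h0 h1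
  set ρ := Real.sqrt (sig p / 4) with hρdef
  have hρ0 : 0 < ρ := Real.sqrt_pos.mpr (by positivity)
  have hρ : ρ ^ 2 = sig p / 4 := Real.sq_sqrt (by positivity)
  have hK := eight_le_K h0 h1
  have h := bonami_noise h0 h1 hρ0.le hρ Finset.univ
    (fun S => if S ∈ 𝓕 then c S / ρ ^ S.card else 0)
  rw [Finset.powerset_univ] at h
  have e1 : ∀ x, ∑ S : Finset ι, ρ ^ S.card * (if S ∈ 𝓕 then c S / ρ ^ S.card else 0) * chi p S x
      = ∑ S ∈ 𝓕, c S * chi p S x := by
    intro x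
    rw [← Finset.sum_subset (Finset.subset_univ 𝓕)]
    · apply Finset.sum_congr rfl
      intro S hS
      rw [if_pos hS]
      have : ρ ^ S.card ≠ 0 := pow_ne_zero _ hρ0.ne'
      field_simp
    · intro S _ hS
      rw [if_neg hS]; simp
  have e2 : ∑ S : Finset ι, (if S ∈ 𝓕 then c S / ρ ^ S.card else 0) ^ 2 ≤
      (4 / sig p) ^ D * ∑ S ∈ 𝓕, c S ^ 2 := by
    rw [← Finset.sum_subset (Finset.subset_univ 𝓕)]
    · rw [Finset.mul_sum]
      apply Finset.sum_le_sum
      intro S hS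
      rw [if_pos hS, div_pow, ← pow_mul, mul_comm S.card 2, pow_mul, hρ, div_eq_mul_inv,
        ← inv_pow, inv_div, mul_comm]
      apply mul_le_mul_of_nonneg_right _ (sq_nonneg _)
      exact pow_le_pow_right₀ (by linarith) (hD S hS)
    · intro S _ hS
      rw [if_neg hS]; simp
  simp only [e1] at h
  calc _ ≤ _ := h
    _ ≤ ((4 / sig p) ^ D * ∑ S ∈ 𝓕, c S ^ 2) ^ 2 :=
        pow_le_pow_left₀ (Finset.sum_nonneg fun _ _ => sq_nonneg _) e2 2
    _ = _ := by ring

theorem Ex_sq_le_of_sq_le {p : ℝ} (h0 : 0 ≤ p) (h1 : p ≤ 1) (R F G : (ι → Bool) → ℝ)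
    (hF : ∀ x, 0 ≤ F x) (hG : ∀ x, 0 ≤ G x) (h : ∀ x, R x ^ 2 ≤ F x * G x) :
    (Ex p R) ^ 2 ≤ Ex p F * Ex p G := by
  unfold Ex
  apply Finset.sum_sq_le_sum_mul_sum_of_sq_le_mul
  · intro x _
    exact mul_nonneg (weight_nonneg h0 h1 x) (hF x)
  · intro x _
    exact mul_nonneg (weight_nonneg h0 h1 x) (hG x)
  · intro x _
    calc _ = bernoulliWeight p x ^ 2 * R x ^ 2 := by ring
      _ ≤ bernoulliWeight p x ^ 2 * (F x * G x) :=
          mul_le_mul_of_nonneg_left (h x) (sq_nonneg _)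
      _ = _ := by ring

/-- Level inequality for a function bounded by one. -/
theorem level_ineq {p : ℝ} (h0 : 0 < p) (h1 : p < 1) (𝓕 : Finset (Finset ι)) (D : ℕ)
    (hD : ∀ S ∈ 𝓕, S.card ≤ D) (φ : (ι → Bool) → ℝ) (hφ : ∀ x, |φ x| ≤ 1) :
    (∑ S ∈ 𝓕, coeff p φ S ^ 2) ^ 2 ≤ (4 / sig p) ^ (2 * D) * Ex p (fun x => |φ x|) ^ 3 := by
  set a := ∑ S ∈ 𝓕, coeff p φ S ^ 2 with ha
  set ψ : (ι → Bool) → ℝ := fun x => ∑ S ∈ 𝓕, coeff p φ S * chi p S x with hψ
  set b := Ex p (fun x => |φ x|) with hb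
  set K := (4 / sig p) ^ (2 * D) with hK
  have hK0 : 0 ≤ K := pow_nonneg (by linarith [eight_le_K h0 h1]) _
  have hb0 : 0 ≤ b := Ex_nonneg h0.le h1.le fun x => abs_nonneg _
  have e1 : Ex p (fun x => ψ x * φ x) = a := by
    rw [hψ, Ex_sum_chi_mul, ha]
    exact Finset.sum_congr rfl fun S _ => by ring
  have e2 : Ex p (fun x => ψ x ^ 4) ≤ K * a ^ 2 := bonami_low h0 h1 𝓕 D hD _
  set u := Ex p (fun x => ψ x ^ 2 * |φ x|) with hu
  have e3 : a ^ 2 ≤ u * b := by
    rw [← e1]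
    apply Ex_sq_le_of_sq_le h0.le h1.le
    · intro x; positivity
    · intro x; positivity
    · intro x
      rw [mul_assoc, ← sq, sq_abs]
      exact le_of_eq (by ring)
  have e4 : u ^ 2 ≤ Ex p (fun x => ψ x ^ 4) * b := by
    apply Ex_sq_le_of_sq_le h0.le h1.le
    · intro x; positivity
    · intro x; positivity
    · intro x
      have h2 : |φ x| ^ 2 ≤ |φ x| := by nlinarith [hφ x, abs_nonneg (φ x)]
      calc _ = ψ x ^ 4 * |φ x| ^ 2 := by ring
        _ ≤ _ := mul_le_mul_of_nonneg_left h2 (by positivity)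
  have e5 : (a ^ 2) * (a ^ 2) ≤ (a ^ 2) * (K * b ^ 3) := by
    calc (a ^ 2) * (a ^ 2) = (a ^ 2) ^ 2 := by ring
      _ ≤ (u * b) ^ 2 := pow_le_pow_left₀ (sq_nonneg _) e3 2
      _ = u ^ 2 * b ^ 2 := by ring
      _ ≤ (Ex p (fun x => ψ x ^ 4) * b) * b ^ 2 := mul_le_mul_of_nonneg_right e4 (sq_nonneg _)
      _ ≤ (K * a ^ 2 * b) * b ^ 2 :=
          mul_le_mul_of_nonneg_right (mul_le_mul_of_nonneg_right e2 hb0) (sq_nonneg _)
      _ = _ := by ring
  rcases eq_or_lt_of_le (sq_nonneg a) with h | h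
  · rw [← h]; positivity
  · exact le_of_mul_le_mul_left e5 h

/-- A KKL-type bound: if every coordinate of `B` carries at most a `1/m` share of the total
`L¹`-influence of `B`, then the low-degree weight of sets meeting `B` is small. -/
theorem kkl_level {p : ℝ} (h0 : 0 < p) (h1 : p < 1) (g : (ι → Bool) → ℝ)
    (hg0 : ∀ x, 0 ≤ g x) (hg1 : ∀ x, g x ≤ 1) (B : Finset ι) (m η : ℝ) (hη : 0 < η) (D : ℕ)
    (hK : (4 / sig p) ^ (2 * D) ≤ η ^ 3 * m)
    (hsym : ∀ e ∈ B, m * Ex p (fun x => |Dv e g x|) ≤ ∑ e' ∈ B, Ex p (fun x => |Dv e' g x|))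
    (𝓕 : Finset (Finset ι)) (hD : ∀ S ∈ 𝓕, S.card ≤ D) (hB : ∀ S ∈ 𝓕, ∃ e ∈ B, e ∈ S) :
    ∑ S ∈ 𝓕, coeff p g S ^ 2 ≤ η * ∑ e ∈ B, Ex p (fun x => |Dv e g x|) := by
  set β := ∑ e ∈ B, Ex p (fun x => |Dv e g x|) with hβ
  by_cases hc : 1 ≤ η * β
  · calc _ ≤ ∑ S : Finset ι, coeff p g S ^ 2 :=
          Finset.sum_le_sum_of_subset_of_nonneg (Finset.subset_univ _) (fun _ _ _ => sq_nonneg _)
      _ = Ex p (fun x => g x ^ 2) := (parseval h0 h1 g).symm
      _ ≤ Ex p (fun _ : ι → Bool => 1) := by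
          apply Ex_mono h0.le h1.le
          intro x
          nlinarith [hg0 x, hg1 x]
      _ = 1 := Ex_const _ _
      _ ≤ _ := hc
  · push Not at hc
    have hstep : ∀ e ∈ B, ∑ S ∈ 𝓕.filter (fun S => e ∈ S), coeff p g S ^ 2 ≤
        η * Ex p (fun x => |Dv e g x|) := by
      intro e he
      set b := Ex p (fun x => |Dv e g x|) with hb
      have hb0 : 0 ≤ b := Ex_nonneg h0.le h1.le fun x => abs_nonneg _
      have hDv : ∀ x, |Dv e g x| ≤ 1 := by
        intro x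
        unfold Dv
        rw [abs_le]
        constructor <;>
          linarith [hg0 (Function.update x e true), hg1 (Function.update x e true),
            hg0 (Function.update x e false), hg1 (Function.update x e false)]
      have hl := level_ineq h0 h1 (𝓕.filter (fun S => e ∈ S)) D
        (fun S hS => hD S (Finset.mem_filter.mp hS).1) (Lap p e g)
        (fun x => le_trans (abs_Lap_le h0.le h1.le e g x) (hDv x))
      have e1 : ∑ S ∈ 𝓕.filter (fun S => e ∈ S), coeff p (Lap p e g) S ^ 2 =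
          ∑ S ∈ 𝓕.filter (fun S => e ∈ S), coeff p g S ^ 2 := by
        apply Finset.sum_congr rfl
        intro S hS
        rw [coeff_Lap_of_mem p (Finset.mem_filter.mp hS).2]
      rw [e1] at hl
      have e2 : Ex p (fun x => |Lap p e g x|) ≤ b :=
        Ex_mono h0.le h1.le fun x => abs_Lap_le h0.le h1.le e g x
      have e3 : 0 ≤ Ex p (fun x => |Lap p e g x|) := Ex_nonneg h0.le h1.le fun x => abs_nonneg _
      have hK0 : 0 ≤ (4 / sig p) ^ (2 * D) := pow_nonneg (by linarith [eight_le_K h0 h1]) _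
      have e4 : (∑ S ∈ 𝓕.filter (fun S => e ∈ S), coeff p g S ^ 2) ^ 2 ≤ (η * b) ^ 2 := by
        calc _ ≤ _ := hl
          _ ≤ (η ^ 3 * m) * b ^ 3 :=
              mul_le_mul hK (pow_le_pow_left₀ e3 e2 3) (pow_nonneg e3 3) (le_trans hK0 hK)
          _ = (η * b) ^ 2 * (η * (m * b)) := by ring
          _ ≤ (η * b) ^ 2 * (η * β) :=
              mul_le_mul_of_nonneg_left (mul_le_mul_of_nonneg_left (hsym e he) hη.le)
                (sq_nonneg _)
          _ ≤ (η * b) ^ 2 * 1 := mul_le_mul_of_nonneg_left hc.le (sq_nonneg _)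
          _ = _ := mul_one _
      exact le_trans (le_abs_self _)
        (abs_le.mpr (abs_le_of_sq_le_sq' e4 (mul_nonneg hη.le hb0)))
    calc ∑ S ∈ 𝓕, coeff p g S ^ 2
        ≤ ∑ S ∈ 𝓕, ∑ e ∈ B, if e ∈ S then coeff p g S ^ 2 else 0 := by
          apply Finset.sum_le_sum
          intro S hS
          obtain ⟨e, he, heS⟩ := hB S hS
          have := Finset.single_le_sum (f := fun e => if e ∈ S then coeff p g S ^ 2 else 0)
            (fun e _ => by split_ifs <;> positivity) he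
          simpa [heS] using this
      _ = ∑ e ∈ B, ∑ S ∈ 𝓕.filter (fun S => e ∈ S), coeff p g S ^ 2 := by
          rw [Finset.sum_comm]
          exact Finset.sum_congr rfl fun e _ => by rw [Finset.sum_filter]
      _ ≤ ∑ e ∈ B, η * Ex p (fun x => |Dv e g x|) := Finset.sum_le_sum hstep
      _ = _ := by rw [← Finset.mul_sum]

end Crest.Agent.Lib.CubeFourier
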